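import Vale.Agent.P073.St
import Mathlib.Analysis.Calculus.BumpFunction.Convolution
import Mathlib.MeasureTheory.Function.ContinuousMapDense

/-!
# P073: mollification of an `L^p` field converges in `L^p` (row A1)
-/

namespace Vale.Agent.P073.MM.H307

open MeasureTheory Set Filter Topology Metric
open Vale.Agent.P073.St (V)
open scoped ContDiff ENNReal Convolution

/-- Jensen for a weight of total mass one. -/
theorem jensen {w v : V → ℝ≥0∞} (hw : Measurable w) (hv : AEMeasurable v volume)
    (hw1 : ∫⁻ y, w y = 1) {p : ℝ} (hp : 1 ≤ p) :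
    (∫⁻ y, w y * v y) ^ p ≤ ∫⁻ y, w y * v y ^ p := by
  rcases hp.eq_or_lt with rfl | hp
  · simp
  set ν : Measure V := (volume : Measure V).withDensity w with hν
  have hac : ν ≪ volume := withDensity_absolutelyContinuous _ _
  have hv' : AEMeasurable v ν := hv.mono_ac hac
  have e1 : ∫⁻ y, v y ∂ν = ∫⁻ y, w y * v y := by
    rw [hν, lintegral_withDensity_eq_lintegral_mul₀ hw.aemeasurable hv]
    rfl
  have e2 : ∫⁻ y, v y ^ p ∂ν = ∫⁻ y, w y * v y ^ p := by
    rw [hν, lintegral_withDensity_eq_lintegral_mul₀ hw.aemeasurable (hv.pow_const p)]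
    rfl
  have e3 : ν univ = 1 := by
    rw [hν, withDensity_apply _ MeasurableSet.univ, Measure.restrict_univ, hw1]
  have hp0 : 0 < p := by linarith
  have h := ENNReal.lintegral_mul_le_Lp_mul_Lq ν (Real.HolderConjugate.conjExponent hp) hv'
    (aemeasurable_const (b := (1 : ℝ≥0∞)))
  have h1 : ∫⁻ y, v y ∂ν ≤ (∫⁻ y, v y ^ p ∂ν) ^ (1 / p) := by
    simpa [e3] using h
  rw [← e1, ← e2]
  calc (∫⁻ y, v y ∂ν) ^ p ≤ ((∫⁻ y, v y ^ p ∂ν) ^ (1 / p)) ^ p :=
        ENNReal.rpow_le_rpow h1 hp0.le
    _ = ∫⁻ y, v y ^ p ∂ν := by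
        rw [← ENNReal.rpow_mul, one_div, inv_mul_cancel₀ hp0.ne', ENNReal.rpow_one]

/-- the weight `y ↦ φ (x - y)` -/
theorem weight_one (φ : ContDiffBump (0 : V)) (x : V) :
    ∫⁻ y, ENNReal.ofReal (φ.normed volume (x - y)) = 1 := by
  rw [lintegral_sub_left_eq_self (μ := (volume : Measure V))
    (fun z => ENNReal.ofReal (φ.normed volume z)) x]
  rw [← ofReal_integral_eq_lintegral_ofReal φ.integrable_normed
    (Eventually.of_forall φ.nonneg_normed), φ.integral_normed, ENNReal.ofReal_one]

theorem weight_one' (φ : ContDiffBump (0 : V)) (y : V) :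
    ∫⁻ x, ENNReal.ofReal (φ.normed volume (x - y)) = 1 := by
  rw [lintegral_sub_right_eq_self (μ := (volume : Measure V))
    (fun z => ENNReal.ofReal (φ.normed volume z)) y]
  rw [← ofReal_integral_eq_lintegral_ofReal φ.integrable_normed
    (Eventually.of_forall φ.nonneg_normed), φ.integral_normed, ENNReal.ofReal_one]

variable {E : Type} [NormedAddCommGroup E] [NormedSpace ℝ E]

/-- the averaged `p`-th power -/
noncomputable def J (φ : ContDiffBump (0 : V)) (p : ℝ) (u : V → E) (x : V) : ℝ≥0∞ :=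
  ∫⁻ y, ENNReal.ofReal (φ.normed volume (x - y)) * ‖u y‖ₑ ^ p

omit [NormedSpace ℝ E] in
theorem aem_kernel (φ : ContDiffBump (0 : V)) (p : ℝ) {u : V → E}
    (hu : AEStronglyMeasurable u volume) :
    AEMeasurable (fun z : V × V => ENNReal.ofReal (φ.normed volume (z.1 - z.2)) * ‖u z.2‖ₑ ^ p)
      ((volume : Measure V).prod volume) := by
  have hc : Continuous (φ.normed (volume : Measure V)) :=
    (φ.contDiff_normed (n := 0)).continuous
  refine AEMeasurable.mul ?_ ?_
  · exact (ENNReal.continuous_ofReal.comp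
      (hc.comp (continuous_fst.sub continuous_snd))).measurable.aemeasurable
  · exact (hu.enorm.comp_quasiMeasurePreserving
      Measure.quasiMeasurePreserving_snd).pow_const p

omit [NormedSpace ℝ E] in
theorem lintegral_J (φ : ContDiffBump (0 : V)) (p : ℝ) {u : V → E}
    (hu : AEStronglyMeasurable u volume) :
    ∫⁻ x, J φ p u x = ∫⁻ y, ‖u y‖ₑ ^ p := by
  unfold J
  rw [lintegral_lintegral_swap (aem_kernel φ p hu)]
  refine lintegral_congr fun y => ?_
  rw [lintegral_mul_const'', weight_one', one_mul]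
  have hc : Continuous (φ.normed (volume : Measure V)) :=
    (φ.contDiff_normed (n := 0)).continuous
  exact (ENNReal.continuous_ofReal.comp
      (hc.comp (continuous_id.sub continuous_const))).measurable.aemeasurable

theorem le_J (φ : ContDiffBump (0 : V)) {p : ℝ} (hp : 1 ≤ p) {u : V → E}
    (hu : AEStronglyMeasurable u volume) (x : V) :
    ‖∫ y, φ.normed volume (x - y) • u y‖ₑ ^ p ≤ J φ p u x := by
  have hc : Continuous (φ.normed (volume : Measure V)) :=
    (φ.contDiff_normed (n := 0)).continuous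
  have h1 : ‖∫ y, φ.normed volume (x - y) • u y‖ₑ ≤
      ∫⁻ y, ENNReal.ofReal (φ.normed volume (x - y)) * ‖u y‖ₑ := by
    refine (enorm_integral_le_lintegral_enorm _).trans (lintegral_mono fun y => ?_)
    rw [enorm_smul, Real.enorm_eq_ofReal (φ.nonneg_normed _)]
  have hm : Measurable fun y => ENNReal.ofReal (φ.normed volume (x - y)) :=
    (ENNReal.continuous_ofReal.comp (hc.comp (continuous_const.sub continuous_id))).measurable
  refine (ENNReal.rpow_le_rpow h1 (by linarith)).trans ?_
  exact jensen hm hu.enorm (weight_one φ x) hp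

omit [NormedSpace ℝ E] in
theorem enorm_rpow_eq (p : ℝ) (hp : 0 ≤ p) (v : E) :
    ENNReal.ofReal (‖v‖ ^ p) = ‖v‖ₑ ^ p := by
  rw [← ofReal_norm, ENNReal.ofReal_rpow_of_nonneg (norm_nonneg _) hp]

theorem three (p : ℝ) (hp : 0 ≤ p) (a b c : ℝ≥0∞) :
    (a + b + c) ^ p ≤ 3 ^ p * (a ^ p + b ^ p + c ^ p) := by
  have h : a + b + c ≤ 3 * max (max a b) c := by
    have h1 : a ≤ max (max a b) c := (le_max_left _ _).trans (le_max_left _ _)
    have h2 : b ≤ max (max a b) c := (le_max_right _ _).trans (le_max_left _ _)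
    have h3 : c ≤ max (max a b) c := le_max_right _ _
    calc a + b + c ≤ max (max a b) c + max (max a b) c + max (max a b) c :=
          add_le_add (add_le_add h1 h2) h3
      _ = 3 * max (max a b) c := by ring
  refine (ENNReal.rpow_le_rpow h hp).trans ?_
  rw [ENNReal.mul_rpow_of_nonneg _ _ hp]
  refine mul_le_mul_right ?_ _
  rcases max_choice (max a b) c with h' | h'
  · rw [h']
    rcases max_choice a b with h'' | h''
    · rw [h'']; exact le_add_right le_self_add
    · rw [h'']; exact le_add_right le_add_self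
  · rw [h']; exact le_add_self

/-- Row A1, for values in any normed space. -/
theorem moll [CompleteSpace E] (p : ℝ) (G : V → E) (hp : 1 ≤ p) (hG : AEStronglyMeasurable G volume)
    (hfin : ∫⁻ x, ENNReal.ofReal (‖G x‖ ^ p) ≠ ⊤) (ε : ℝ) (hε : 0 < ε) :
    ∃ δ : ℝ, 0 < δ ∧ ∀ φ : ContDiffBump (0 : V), φ.rOut ≤ δ →
      ∫⁻ x, ENNReal.ofReal (‖(∫ y, φ.normed volume (x - y) • G y) - G x‖ ^ p) ≤
        ENNReal.ofReal ε := by
  have hp0 : 0 < p := by linarith
  have hpe : ENNReal.ofReal p ≠ 0 := by simpa using hp0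
  have hpt : ENNReal.ofReal p ≠ ⊤ := ENNReal.ofReal_ne_top
  simp only [enorm_rpow_eq p hp0.le] at hfin ⊢
  have hmem : MemLp G (ENNReal.ofReal p) volume := by
    refine ⟨hG, ?_⟩
    rw [eLpNorm_lt_top_iff_lintegral_rpow_enorm_lt_top hpe hpt,
      ENNReal.toReal_ofReal hp0.le]
    exact lt_top_iff_ne_top.2 hfin
  -- the constant
  set c : ℝ := ε / (3 * 3 ^ p) with hcdef
  have h3p : (0 : ℝ) < 3 ^ p := by positivity
  have hc : 0 < c := by positivity
  have hc' : (ENNReal.ofReal c) ≠ 0 := by simpa using hc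
  -- the continuous approximation
  obtain ⟨g, gs, gle, gc, gm⟩ := hmem.exists_hasCompactSupport_eLpNorm_sub_le hpt
    (ε := (ENNReal.ofReal c) ^ (1 / p)) (by
      rw [Ne, ENNReal.rpow_eq_zero_iff]
      rintro (⟨h, -⟩ | ⟨h, -⟩)
      · exact hc' h
      · exact ENNReal.ofReal_ne_top h)
  have hGg : ∫⁻ x, ‖G x - g x‖ₑ ^ p ≤ ENNReal.ofReal c := by
    have h := ENNReal.rpow_le_rpow gle hp0.le
    rw [← ENNReal.rpow_mul, one_div, inv_mul_cancel₀ hp0.ne', ENNReal.rpow_one,
      eLpNorm_eq_eLpNorm' hpe hpt, ENNReal.toReal_ofReal hp0.le,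
      ← lintegral_rpow_enorm_eq_rpow_eLpNorm' hp0] at h
    exact h
  -- the compact set
  set K : Set V := cthickening 1 (tsupport g) with hK
  have hKc : IsCompact K := gs.isCompact.cthickening
  have hKf : volume K ≠ ⊤ := hKc.measure_lt_top.ne
  -- the modulus
  obtain ⟨η, hη, hηK⟩ : ∃ η : ℝ, 0 < η ∧ ENNReal.ofReal η ^ p * volume K ≤ ENNReal.ofReal c := by
    obtain ⟨m, hm0, hm⟩ : ∃ m : ℝ, 0 ≤ m ∧ volume K = ENNReal.ofReal m :=
      ⟨_, ENNReal.toReal_nonneg, (ENNReal.ofReal_toReal hKf).symm⟩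
    have hq : 0 < c / (m + 1) := by positivity
    refine ⟨(c / (m + 1)) ^ (1 / p), by positivity, ?_⟩
    rw [ENNReal.ofReal_rpow_of_nonneg (by positivity) hp0.le, ← Real.rpow_mul hq.le, one_div,
      inv_mul_cancel₀ hp0.ne', Real.rpow_one, hm, ← ENNReal.ofReal_mul hq.le]
    refine ENNReal.ofReal_le_ofReal ?_
    rw [div_mul_eq_mul_div, div_le_iff₀ (by positivity)]
    nlinarith
  have huc : UniformContinuous g := gs.uniformContinuous_of_continuous gc
  obtain ⟨δ₀, hδ₀, hmod⟩ := Metric.uniformContinuous_iff.1 huc η hη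
  refine ⟨min δ₀ 1, lt_min hδ₀ one_pos, fun φ hφ => ?_⟩
  have hφ0 : φ.rOut ≤ δ₀ := hφ.trans (min_le_left _ _)
  have hφ1 : φ.rOut ≤ 1 := hφ.trans (min_le_right _ _)
  -- the middle term
  have hmid : ∀ x, ‖(∫ y, φ.normed volume (x - y) • g y) - g x‖ₑ ^ p ≤
      K.indicator (fun _ => ENNReal.ofReal η ^ p) x := by
    intro x
    have e : (∫ y, φ.normed volume (x - y) • g y) =
        (φ.normed volume ⋆[ContinuousLinearMap.lsmul ℝ ℝ, volume] g : V → E) x :=
      (convolution_lsmul_swap (μ := (volume : Measure V))).symm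
    rw [e]
    by_cases hx : x ∈ K
    · rw [indicator_of_mem hx]
      have h := φ.dist_normed_convolution_le (μ := (volume : Measure V)) (g := g) (x₀ := x)
        (ε := η) gc.aestronglyMeasurable (fun y hy => (hmod (lt_of_lt_of_le hy hφ0)).le)
      rw [dist_eq_norm] at h
      refine ENNReal.rpow_le_rpow ?_ hp0.le
      rw [← ofReal_norm]
      exact ENNReal.ofReal_le_ofReal h
    · rw [indicator_of_notMem hx]
      have hz : ∀ y ∈ ball x φ.rOut, g y = 0 := by
        intro y hy
        by_contra hne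
        apply hx
        have hy' : y ∈ tsupport g := subset_tsupport g hne
        refine mem_cthickening_of_dist_le x y 1 _ hy' ?_
        rw [dist_comm]
        exact (le_of_lt hy).trans hφ1
      have h := φ.dist_normed_convolution_le (μ := (volume : Measure V)) (g := g) (x₀ := x)
        (ε := 0) gc.aestronglyMeasurable (fun y hy => by
          rw [hz y hy, hz x (mem_ball_self φ.rOut_pos), dist_self])
      rw [dist_eq_norm] at h
      have h0 : (φ.normed volume ⋆[ContinuousLinearMap.lsmul ℝ ℝ, volume] g : V → E) x - g x = 0 :=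
        norm_le_zero_iff.1 h
      rw [h0, enorm_zero, ENNReal.zero_rpow_of_pos hp0]
  have hmid' : ∫⁻ x, K.indicator (fun _ => ENNReal.ofReal η ^ p) x ≤ ENNReal.ofReal c := by
    rw [lintegral_indicator_const hKc.isClosed.measurableSet]
    exact hηK
  -- additivity of the average
  have hloc : LocallyIntegrable G volume :=
    hmem.locallyIntegrable (by simpa using hp)
  have hgl : LocallyIntegrable g volume := gc.locallyIntegrable
  have hsub : AEStronglyMeasurable (fun x => G x - g x) volume :=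
    hG.sub gc.aestronglyMeasurable
  have hcn : Continuous (φ.normed (volume : Measure V)) :=
    (φ.contDiff_normed (n := 0)).continuous
  have hadd : ∀ x, (∫ y, φ.normed volume (x - y) • G y) - G x =
      (∫ y, φ.normed volume (x - y) • (G y - g y)) +
        ((∫ y, φ.normed volume (x - y) • g y) - g x) + (g x - G x) := by
    intro x
    have hcx : Continuous fun y => φ.normed (volume : Measure V) (x - y) :=
      hcn.comp (continuous_const.sub continuous_id)
    have hsx : HasCompactSupport fun y => φ.normed (volume : Measure V) (x - y) :=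
      φ.hasCompactSupport_normed.comp_homeomorph (Homeomorph.subLeft x)
    have i1 : Integrable (fun y => φ.normed volume (x - y) • G y) volume :=
      hloc.integrable_smul_left_of_hasCompactSupport hcx hsx
    have i2 : Integrable (fun y => φ.normed volume (x - y) • g y) volume :=
      hgl.integrable_smul_left_of_hasCompactSupport hcx hsx
    have : (∫ y, φ.normed volume (x - y) • (G y - g y)) =
        (∫ y, φ.normed volume (x - y) • G y) - ∫ y, φ.normed volume (x - y) • g y := by
      rw [← integral_sub i1 i2]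
      refine integral_congr_ae (Eventually.of_forall fun y => ?_)
      simp only [smul_sub]
    rw [this]
    abel
  have hpt2 : ∀ x, ‖(∫ y, φ.normed volume (x - y) • G y) - G x‖ₑ ^ p ≤
      3 ^ p * (J φ p (fun y => G y - g y) x + K.indicator (fun _ => ENNReal.ofReal η ^ p) x +
        ‖G x - g x‖ₑ ^ p) := by
    intro x
    rw [hadd x]
    refine (ENNReal.rpow_le_rpow ((enorm_add_le _ _).trans
      (add_le_add (enorm_add_le _ _) le_rfl)) hp0.le).trans ?_
    refine (three p hp0.le _ _ _).trans ?_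
    refine mul_le_mul_right ?_ _
    refine add_le_add (add_le_add (le_J φ hp hsub x) (hmid x)) ?_
    rw [← enorm_neg, neg_sub]
  have hJm : AEMeasurable (J φ p (fun y => G y - g y)) volume :=
    (aem_kernel φ p hsub).lintegral_prod_right'
  have hIm : Measurable (K.indicator (fun _ => ENNReal.ofReal η ^ p)) :=
    measurable_const.indicator hKc.isClosed.measurableSet
  calc ∫⁻ x, ‖(∫ y, φ.normed volume (x - y) • G y) - G x‖ₑ ^ p
      ≤ ∫⁻ x, 3 ^ p * (J φ p (fun y => G y - g y) x +
          K.indicator (fun _ => ENNReal.ofReal η ^ p) x + ‖G x - g x‖ₑ ^ p) :=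
        lintegral_mono hpt2
    _ = 3 ^ p * ((∫⁻ x, J φ p (fun y => G y - g y) x) +
          (∫⁻ x, K.indicator (fun _ => ENNReal.ofReal η ^ p) x) + ∫⁻ x, ‖G x - g x‖ₑ ^ p) := by
        rw [lintegral_const_mul' _ _ (ENNReal.rpow_ne_top_of_nonneg hp0.le (by norm_num))]
        congr 1
        exact (lintegral_add_left' (f := fun x => J φ p (fun y => G y - g y) x +
          K.indicator (fun _ => ENNReal.ofReal η ^ p) x) (hJm.add hIm.aemeasurable) _).trans
          (congrArg (· + _) (lintegral_add_left' hJm _))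
    _ ≤ 3 ^ p * (ENNReal.ofReal c + ENNReal.ofReal c + ENNReal.ofReal c) := by
        refine mul_le_mul_right ?_ _
        refine add_le_add (add_le_add ?_ hmid') hGg
        rw [lintegral_J φ p hsub]
        exact hGg
    _ = ENNReal.ofReal ε := by
        rw [← ENNReal.ofReal_add hc.le hc.le, ← ENNReal.ofReal_add (by positivity) hc.le]
        have : (3 : ℝ≥0∞) ^ p = ENNReal.ofReal (3 ^ p) := by
          rw [← ENNReal.ofReal_rpow_of_nonneg (by norm_num) hp0.le]
          norm_num
        rw [this, ← ENNReal.ofReal_mul h3p.le]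
        congr 1
        rw [hcdef]
        field_simp
        ring

/-- Row A1, with the literal of `SpecMollLp`. -/
theorem mollLp : ∀ (p : ℝ) (G : V → V →L[ℝ] V), 1 ≤ p → AEStronglyMeasurable G volume →
    ∫⁻ x, ENNReal.ofReal (‖G x‖ ^ p) ≠ ⊤ → HasCompactSupport G → ∀ ε : ℝ, 0 < ε →
    ∃ δ : ℝ, 0 < δ ∧ ∀ φ : ContDiffBump (0 : V), φ.rOut ≤ δ →
      ∫⁻ x, ENNReal.ofReal (‖(∫ y, φ.normed volume (x - y) • G y) - G x‖ ^ p) ≤
        ENNReal.ofReal ε :=
  fun p G hp hG hf _ ε hε => moll p G hp hG hf ε hε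

end Vale.Agent.P073.MM.H307
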