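import Vale.Agent.P073.St
import Mathlib.Analysis.Calculus.BumpFunction.Convolution

/-!
# P073: a fixed linear change of the target
-/

namespace Vale.Agent.P073.MM.H307

open MeasureTheory Set Filter Topology Vale.Agent.P073.St
open scoped ContDiff

variable {p : ℝ} {Ω : Set V} {f : V → V} {F : V → Mat}

theorem pd_cont {φ : V → ℝ} (hφ : ContDiff ℝ ∞ φ) (j : Fin 3) :
    Continuous fun x => pd φ x j := by
  have h : (fun x => pd φ x j) = fun x => fderiv ℝ φ x (Pi.single j 1) := by
    funext x
    have h1 : HasDerivAt (fun t : ℝ => Function.update x j t) (Pi.single j (1 : ℝ)) (x j) :=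
      hasDerivAt_update x j (x j)
    have h2 : HasFDerivAt φ (fderiv ℝ φ (Function.update x j (x j)))
        (Function.update x j (x j)) := ((hφ.differentiable (by simp)) _).hasFDerivAt
    have h3 := h2.comp_hasDerivAt (x j) h1
    rw [Function.update_eq_self] at h3
    exact h3.deriv
  rw [h]
  exact (hφ.continuous_fderiv (by simp)).clm_apply continuous_const

theorem pd_comp {φ : V → ℝ} (hφ : ContDiff ℝ ∞ φ) (hc : HasCompactSupport φ) (j : Fin 3) :
    HasCompactSupport fun x => pd φ x j := by
  have h : (fun x => pd φ x j) = fun x => fderiv ℝ φ x (Pi.single j 1) := by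
    funext x
    have h1 : HasDerivAt (fun t : ℝ => Function.update x j t) (Pi.single j (1 : ℝ)) (x j) :=
      hasDerivAt_update x j (x j)
    have h2 : HasFDerivAt φ (fderiv ℝ φ (Function.update x j (x j)))
        (Function.update x j (x j)) := ((hφ.differentiable (by simp)) _).hasFDerivAt
    have h3 := h2.comp_hasDerivAt (x j) h1
    rw [Function.update_eq_self] at h3
    exact h3.deriv
  rw [h]
  exact (hc.fderiv (𝕜 := ℝ)).comp_left (g := fun L : V →L[ℝ] ℝ => L (Pi.single j 1)) rfl

theorem int_mul {u : V → ℝ} (hp : 1 ≤ p) (hu : InLp p Ω u) {c : V → ℝ} (hc : Continuous c)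
    (hs : HasCompactSupport c) : Integrable (fun x => c x * u x) (volume.restrict Ω) := by
  have h1 : LocallyIntegrable u (volume.restrict Ω) :=
    MemLp.locallyIntegrable hu (by simpa using hp)
  exact h1.integrable_smul_left_of_hasCompactSupport hc hs

/-- Row L1. -/
theorem sobolev_lin (hp : 1 ≤ p) (hF : St.IsSobolev p Ω f F) (A : Mat) :
    St.IsSobolev p Ω (fun x => ap A (f x)) (fun x => mm A (F x)) := by
  refine ⟨fun i => ?_, fun i k => ?_, fun φ hφ i k => ?_⟩
  · exact memLp_finsetSum _ fun j _ => (hF.1 j).const_mul (A i j)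
  · exact memLp_finsetSum _ fun j _ => (hF.2.1 j k).const_mul (A i j)
  · have hs : ContDiff ℝ ∞ φ := contDiffOn_univ.1 hφ.1
    have e1 : int Ω (fun x => φ x * mm A (F x) i k) =
        ∑ j, A i j * int Ω (fun x => φ x * F x j k) := by
      unfold int
      have : (fun x => φ x * mm A (F x) i k) = fun x => ∑ j, A i j * (φ x * F x j k) := by
        funext x
        show φ x * ∑ j, A i j * F x j k = _
        rw [Finset.mul_sum]
        exact Finset.sum_congr rfl fun j _ => by ring
      rw [this, integral_finsetSum _ fun j _ =>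
        (int_mul hp (hF.2.1 j k) hs.continuous hφ.2.1).const_mul _]
      exact Finset.sum_congr rfl fun j _ => integral_const_mul _ _
    have e2 : int Ω (fun x => pd φ x k * ap A (f x) i) =
        ∑ j, A i j * int Ω (fun x => pd φ x k * f x j) := by
      unfold int
      have : (fun x => pd φ x k * ap A (f x) i) = fun x => ∑ j, A i j * (pd φ x k * f x j) := by
        funext x
        show pd φ x k * ∑ j, A i j * f x j = _
        rw [Finset.mul_sum]
        exact Finset.sum_congr rfl fun j _ => by ring
      rw [this, integral_finsetSum _ fun j _ =>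
        (int_mul hp (hF.1 j) (pd_cont hs k) (pd_comp hs hφ.2.1 k)).const_mul _]
      exact Finset.sum_congr rfl fun j _ => integral_const_mul _ _
    rw [e1, e2, ← Finset.sum_neg_distrib]
    refine Finset.sum_congr rfl fun j _ => ?_
    rw [hF.2.2 φ hφ j k]
    ring

end Vale.Agent.P073.MM.H307
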