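import Vale.Agent.P073.St
import Mathlib.Geometry.Manifold.PartitionOfUnity

/-!
# P073, block MM: a partition of unity by differences of cut-off functions
-/

namespace Vale.Agent.P073.MM.H307

open MeasureTheory Set Filter Topology Metric Vale.Agent.P073.St
open scoped ContDiff Manifold

/-- one cut-off function -/
theorem cut {d : V → ℝ} (hd : Continuous d) {a b : ℝ} (hab : a < b) :
    ∃ χ : V → ℝ, ContDiff ℝ ∞ χ ∧ (∀ x, 0 ≤ χ x) ∧ (∀ x, χ x ≤ 1) ∧
      (∀ x, d x ≤ a → χ x = 0) ∧ ∀ x, b ≤ d x → χ x = 1 := by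
  obtain ⟨f, h0, h1, h2⟩ := exists_contMDiffMap_zero_one_of_isClosed (n := (⊤ : ℕ∞)) 𝓘(ℝ, V)
    (s := {x : V | d x ≤ a}) (t := {x : V | b ≤ d x})
    (isClosed_le hd continuous_const) (isClosed_le continuous_const hd)
    (Set.disjoint_left.2 fun x hx hx' => by
      have h1 : d x ≤ a := hx
      have h2 : b ≤ d x := hx'
      linarith)
  refine ⟨f, f.contMDiff.contDiff, fun x => (h2 x).1, fun x => (h2 x).2, fun x hx => ?_,
    fun x hx => ?_⟩
  · exact h0 hx
  · exact h1 hx

theorem part (U : Set V) (hU : IsOpen U) (hb : Bornology.IsBounded U) :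
    ∃ (c : ℕ → V → ℝ) (W : ℕ → Set V), (∀ n, ContDiff ℝ ∞ (c n)) ∧
      (∀ n, HasCompactSupport (c n)) ∧ (∀ n x, 0 ≤ c n x) ∧ (∀ n, IsOpen (W n)) ∧
      (∀ n, tsupport (c n) ⊆ W n) ∧ (∀ n, IsCompact (closure (W n)) ∧ closure (W n) ⊆ U) ∧
      ∀ x ∈ U, ∃ N : ℕ, ∃ t ∈ 𝓝 x, ∀ y ∈ t, (∀ n, N ≤ n → y ∉ W n) ∧
        ∑ n ∈ Finset.range N, c n y = 1 := by
  set d : V → ℝ := fun x => infDist x Uᶜ with hddef
  have hd : Continuous d := continuous_infDist_pt _
  have hne : (Uᶜ).Nonempty := by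
    by_contra h
    rw [not_nonempty_iff_eq_empty, compl_empty_iff] at h
    rw [h] at hb
    exact NormedSpace.unbounded_univ ℝ V hb
  have hdU : ∀ x, 0 < d x → x ∈ U := by
    intro x hx
    by_contra h
    have : d x = 0 := infDist_zero_of_mem (show x ∈ Uᶜ from h)
    linarith
  have hdpos : ∀ x ∈ U, 0 < d x := by
    intro x hx
    exact (hU.isClosed_compl.notMem_iff_infDist_pos hne).1 fun h => h hx
  have hcomp : ∀ a : ℝ, 0 < a → IsCompact {x : V | a ≤ d x} := by
    intro a ha
    refine Metric.isCompact_of_isClosed_isBounded (isClosed_le continuous_const hd)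
      (hb.subset fun x hx => hdU x (lt_of_lt_of_le ha hx))
  have hr : ∀ n : ℕ, (0 : ℝ) < (1 / 2) ^ n := fun n => by positivity
  have hχ : ∀ n : ℕ, ∃ χ : V → ℝ, ContDiff ℝ ∞ χ ∧ (∀ x, 0 ≤ χ x) ∧ (∀ x, χ x ≤ 1) ∧
      (∀ x, d x ≤ 3 / 4 * (1 / 2) ^ n → χ x = 0) ∧ ∀ x, (1 / 2) ^ n ≤ d x → χ x = 1 :=
    fun n => cut hd (by linarith [hr n])
  choose χ χs χ0 χ1 χz χo using hχ
  -- supports
  have hsupp : ∀ n, tsupport (χ n) ⊆ {x | 3 / 4 * (1 / 2) ^ n ≤ d x} := by
    intro n
    refine closure_minimal (fun x hx => ?_) (isClosed_le continuous_const hd)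
    by_contra h
    exact hx (χz n x (le_of_lt (not_le.1 h)))
  have hχc : ∀ n, HasCompactSupport (χ n) := fun n =>
    (hcomp _ (by linarith [hr n])).of_isClosed_subset (isClosed_tsupport _) (hsupp n)
  have hstep : ∀ n : ℕ, ((1 : ℝ) / 2) ^ (n + 1) = 1 / 2 * (1 / 2) ^ n := fun n => by ring
  refine ⟨fun n => Nat.casesOn n (χ 0) fun m => fun x => χ (m + 1) x - χ m x,
    fun n => Nat.casesOn n {x | 1 / 2 < d x}
      fun m => {x | (1 / 2) ^ (m + 2) < d x ∧ d x < 2 * (1 / 2) ^ m}, ?_, ?_, ?_, ?_, ?_, ?_, ?_⟩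
  · rintro (_ | m)
    · exact χs 0
    · exact (χs (m + 1)).sub (χs m)
  · rintro (_ | m)
    · exact hχc 0
    · exact (hχc (m + 1)).sub (hχc m)
  · rintro (_ | m) x
    · exact χ0 0 x
    · show 0 ≤ χ (m + 1) x - χ m x
      by_cases h : (1 / 2) ^ (m + 1) ≤ d x
      · rw [χo (m + 1) x h]
        linarith [χ1 m x]
      · have : χ m x = 0 := χz m x (by
          have h1 := hstep m
          have h2 := hr m
          linarith [not_le.1 h])
        rw [this, sub_zero]
        exact χ0 _ x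
  · rintro (_ | m)
    · exact isOpen_lt continuous_const hd
    · exact (isOpen_lt continuous_const hd).inter (isOpen_lt hd continuous_const)
  · rintro (_ | m)
    · refine (hsupp 0).trans fun x hx => ?_
      have h1 : 3 / 4 * (1 / 2 : ℝ) ^ 0 ≤ d x := hx
      show 1 / 2 < d x
      norm_num at h1
      linarith
    · intro x hx
      have h1 : x ∈ {x | 3 / 4 * (1 / 2 : ℝ) ^ (m + 1) ≤ d x} := by
        refine closure_minimal (fun y hy => ?_) (isClosed_le continuous_const hd) hx
        by_contra h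
        apply hy
        have h2 : d y < 3 / 4 * (1 / 2 : ℝ) ^ (m + 1) := not_le.1 h
        have h3 := hstep m
        have h4 := hr m
        show χ (m + 1) y - χ m y = 0
        rw [χz (m + 1) y h2.le, χz m y (by linarith), sub_zero]
      have h2 : x ∈ {x | d x ≤ (1 / 2 : ℝ) ^ m} := by
        refine closure_minimal (fun y hy => ?_) (isClosed_le hd continuous_const) hx
        by_contra h
        apply hy
        have h2 : (1 / 2 : ℝ) ^ m < d y := not_le.1 h
        have h3 := hstep m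
        have h4 := hr m
        show χ (m + 1) y - χ m y = 0
        rw [χo (m + 1) y (by linarith), χo m y h2.le, sub_self]
      have h1' : 3 / 4 * (1 / 2 : ℝ) ^ (m + 1) ≤ d x := h1
      have h2' : d x ≤ (1 / 2 : ℝ) ^ m := h2
      have h3 := hstep (m + 1)
      have h4 := hr m
      have h5 := hr (m + 1)
      refine ⟨?_, ?_⟩
      · show (1 / 2 : ℝ) ^ (m + 2) < d x
        have h6 : ((1 : ℝ) / 2) ^ (m + 2) = 1 / 2 * (1 / 2) ^ (m + 1) := h3
        linarith
      · show d x < 2 * (1 / 2) ^ m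
        linarith
  · have key : ∀ (a : ℝ) (S : Set V), 0 < a → (∀ x ∈ S, a ≤ d x) →
        IsCompact (closure S) ∧ closure S ⊆ U := by
      intro a S ha hS
      have h1 : closure S ⊆ {x | a ≤ d x} :=
        closure_minimal hS (isClosed_le continuous_const hd)
      exact ⟨(hcomp a ha).of_isClosed_subset isClosed_closure h1,
        fun x hx => hdU x (lt_of_lt_of_le ha (h1 hx))⟩
    rintro (_ | m)
    · exact key (1 / 2) _ (by norm_num) fun x hx => le_of_lt hx
    · exact key ((1 / 2) ^ (m + 2)) _ (hr _) fun x hx => le_of_lt hx.1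
  · intro x hx
    have hx0 := hdpos x hx
    obtain ⟨M, hM⟩ : ∃ M : ℕ, (1 / 2 : ℝ) ^ M < d x / 4 :=
      exists_pow_lt_of_lt_one (by positivity) (by norm_num)
    refine ⟨M + 1, {y | d x / 2 < d y}, (isOpen_lt continuous_const hd).mem_nhds (by
      show d x / 2 < d x
      linarith), fun y hy => ⟨?_, ?_⟩⟩
    · have hy' : d x / 2 < d y := hy
      rintro (_ | m) hn
      · omega
      · rintro ⟨-, h2⟩
        have h3 : ((1 : ℝ) / 2) ^ m ≤ (1 / 2) ^ M :=
          pow_le_pow_of_le_one (by norm_num) (by norm_num) (by omega)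
        linarith
    · have hy' : d x / 2 < d y := hy
      have hsum : ∀ n : ℕ, ∑ k ∈ Finset.range (n + 1),
          (Nat.casesOn k (χ 0) (fun m => fun x => χ (m + 1) x - χ m x) : V → ℝ) y = χ n y := by
        intro n
        induction n with
        | zero => simp
        | succ n ih =>
          rw [Finset.sum_range_succ, ih]
          show χ n y + (χ (n + 1) y - χ n y) = χ (n + 1) y
          ring
      refine (hsum M).trans (χo M y ?_)
      linarith

end Vale.Agent.P073.MM.H307
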