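import Vale.Agent.P073.MM.Cv

/-!
# P073, block MM: a countable sum in `L^p`, and the sign of an average
-/

namespace Vale.Agent.P073.MM.H307

open MeasureTheory Set Filter Topology Metric Vale.Agent.P073.St
open scoped ContDiff ENNReal

/-- a sum is at most the supremum of the terms with weights `2^(n+1)` -/
theorem tsum_le_sup (a : ℕ → ℝ≥0∞) : ∑' n, a n ≤ ⨆ n, 2 ^ (n + 1) * a n := by
  have h : ∀ n, a n ≤ (2⁻¹ : ℝ≥0∞) ^ (n + 1) * ⨆ n, 2 ^ (n + 1) * a n := by
    intro n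
    calc a n = (2⁻¹ : ℝ≥0∞) ^ (n + 1) * (2 ^ (n + 1) * a n) := by
          rw [← mul_assoc, ← mul_pow, ENNReal.inv_mul_cancel (by norm_num) (by norm_num),
            one_pow, one_mul]
      _ ≤ _ := by
          refine mul_le_mul_right ?_ _
          exact le_iSup (fun n => 2 ^ (n + 1) * a n) n
  calc ∑' n, a n ≤ ∑' n, (2⁻¹ : ℝ≥0∞) ^ (n + 1) * ⨆ n, 2 ^ (n + 1) * a n :=
        ENNReal.tsum_le_tsum h
    _ = ⨆ n, 2 ^ (n + 1) * a n := by
        rw [ENNReal.tsum_mul_right]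
        have : ∑' n : ℕ, (2⁻¹ : ℝ≥0∞) ^ (n + 1) = 1 := by
          rw [ENNReal.tsum_geometric_add_one, ENNReal.one_sub_inv_two, inv_inv,
            ENNReal.inv_mul_cancel (by norm_num) (by norm_num)]
        rw [this, one_mul]

theorem tsum_rpow_le {p : ℝ} (hp : 0 < p) (a : ℕ → ℝ≥0∞) :
    (∑' n, a n) ^ p ≤ ∑' n, (2 ^ (n + 1)) ^ p * a n ^ p := by
  refine (ENNReal.rpow_le_rpow (tsum_le_sup a) hp.le).trans ?_
  have h1 : (⨆ n, 2 ^ (n + 1) * a n) ^ p = ⨆ n, (2 ^ (n + 1) * a n) ^ p :=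
    (ENNReal.orderIsoRpow p hp).map_iSup _
  rw [h1]
  refine iSup_le fun n => ?_
  rw [ENNReal.mul_rpow_of_nonneg _ _ hp.le]
  exact ENNReal.le_tsum n

theorem sum_rpow {p : ℝ} (hp : 1 ≤ p) {μ : Measure V} {a : ℕ → V → ℝ≥0∞}
    (ha : ∀ n, AEMeasurable (a n) μ) :
    ∫⁻ x, (∑' n, a n x) ^ p ∂μ ≤ ∑' n, (2 ^ (n + 1)) ^ p * ∫⁻ x, a n x ^ p ∂μ := by
  have hp0 : 0 < p := by linarith
  calc ∫⁻ x, (∑' n, a n x) ^ p ∂μ ≤ ∫⁻ x, ∑' n, (2 ^ (n + 1)) ^ p * a n x ^ p ∂μ :=
        lintegral_mono fun x => tsum_rpow_le hp0 _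
    _ = ∑' n, ∫⁻ x, (2 ^ (n + 1)) ^ p * a n x ^ p ∂μ :=
        lintegral_tsum fun n => ((ha n).pow_const p).const_mul _
    _ = _ := by
        refine tsum_congr fun n => ?_
        rw [lintegral_const_mul' _ _ (ENNReal.rpow_ne_top_of_nonneg hp0.le
          (ENNReal.pow_ne_top (by norm_num)))]

/-- the average of a field with nonnegative symmetric part has nonnegative symmetric part -/
theorem psd_cv (φ : ContDiffBump (0 : V)) {u : V → V →L[ℝ] V} (hu : LocallyIntegrable u)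
    (hpos : ∀ᵐ y ∂(volume : Measure V), ∀ h : V, 0 ≤ ∑ i, h i * u y h i) (x h : V) :
    0 ≤ ∑ i, h i * cv φ u x h i := by
  have hi : Integrable (fun y => φ.normed volume (x - y) • u y) := cv_integrable φ hu x
  have hi2 : Integrable (fun y => (φ.normed volume (x - y) • u y) h) :=
    hi.apply_continuousLinearMap h
  have e1 : ∀ i, cv φ u x h i = ∫ y, φ.normed volume (x - y) * u y h i := by
    intro i
    have h1 : cv φ u x h = ∫ y, (φ.normed volume (x - y) • u y) h :=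
      ContinuousLinearMap.integral_apply hi h
    have h2 := (ContinuousLinearMap.proj (R := ℝ) (φ := fun _ : Fin 3 => ℝ) i).integral_comp_comm
      hi2
    rw [h1]
    exact h2.symm
  have e2 : ∀ i, Integrable fun y => φ.normed volume (x - y) * u y h i := fun i => hi2.eval i
  simp only [e1]
  have e3 : ∑ i, h i * ∫ y, φ.normed volume (x - y) * u y h i =
      ∫ y, ∑ i, h i * (φ.normed volume (x - y) * u y h i) := by
    rw [integral_finsetSum _ (fun i _ => (e2 i).const_mul (h i))]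
    refine Finset.sum_congr rfl fun i _ => ?_
    rw [integral_const_mul]
  rw [e3]
  refine integral_nonneg_of_ae ?_
  filter_upwards [hpos] with y hy
  have : ∑ i, h i * (φ.normed volume (x - y) * u y h i) =
      φ.normed volume (x - y) * ∑ i, h i * u y h i := by
    rw [Finset.mul_sum]
    refine Finset.sum_congr rfl fun i _ => by ring
  show 0 ≤ _
  rw [this]
  exact mul_nonneg (φ.nonneg_normed _) (hy h)

/-- a small matrix has a small quadratic form -/
theorem quad_small {L : V →L[ℝ] V} {η : ℝ} (hL : ‖L‖ ≤ η) (h : V) :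
    |∑ i, h i * L h i| ≤ 3 * η * ‖h‖ ^ 2 := by
  refine (Finset.abs_sum_le_sum_abs _ _).trans ?_
  have : ∀ i ∈ (Finset.univ : Finset (Fin 3)), |h i * L h i| ≤ η * ‖h‖ ^ 2 := by
    intro i _
    rw [abs_mul]
    have h1 : |h i| ≤ ‖h‖ := norm_le_pi_norm h i
    have h2 : |L h i| ≤ η * ‖h‖ := (norm_le_pi_norm (L h) i).trans
      ((L.le_opNorm h).trans (mul_le_mul_of_nonneg_right hL (norm_nonneg _)))
    calc |h i| * |L h i| ≤ ‖h‖ * (η * ‖h‖) :=
          mul_le_mul h1 h2 (abs_nonneg _) (norm_nonneg _)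
      _ = η * ‖h‖ ^ 2 := by ring
  refine (Finset.sum_le_sum this).trans ?_
  simp
  linarith

end Vale.Agent.P073.MM.H307
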